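import Vale.Agent.Lib.P154.TM.Cert.T405.Top

namespace Vale.Agent.Lib.P154.TM.Cert.T405

open Vale.Agent.Lib.P154.TM Filter Topology
open Vale.Agent.Lib.P154 Vale.Agent.Lib.P154.Neg

/-- the theorem on the tree for `t` in a cell around `0.405`, from the certificates of this cell -/
theorem tendsto_t405 {t d : ℝ} (h1 : 199 / 500 ≤ t) (h2 : t ≤ 33 / 80) (hd : 0 ≤ d)
    (hKS : d * t ^ 2 ≤ 1) :
    Tendsto (fun n => gwEx (poissonLaw d) (-t) n I2) atTop (𝓝 0) := by
  have ht0 : 0 < t := by linarith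
  have hd16 : d ≤ 16 := by
    have h3 : (199 / 500 : ℝ) ^ 2 ≤ t ^ 2 := by gcongr
    nlinarith
  refine tendsto_of_root root ?_ ht0 (by linarith) hd hKS hd16
  have e1 : ((466933209365773025 : ℕ) : ℝ) / (K : ℝ) = 466933209365773025 / 1152921504606846976 := by
    norm_num [K]
  have e2 : ((Nat.pow 2 53 : ℕ) : ℝ) / (K : ℝ) = 1 / 128 := by
    norm_num [K, Nat.pow_eq]
  rw [e1, e2, abs_le]
  constructor <;> linarith

end Vale.Agent.Lib.P154.TM.Cert.T405
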