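import Vale.Agent.Lib.P154.TM.Tab
import Vale.Agent.Lib.P154.TM.Row

namespace Vale.Agent.Lib.P154.TM.Cert.T405

open Vale.Agent.Lib.P154.TM

theorem n0000000000000001011 : NearOK 1 512 hBox tabU 63050394783186944 53 27021597764222976 53 466933209365773025 53 :=
  cellT_sound (by norm_num) (.nd (.nd .lf .lf) (.nd .lf .lf)) 63050394783186944 53 27021597764222976 53 466933209365773025 53 (by decide +kernel)

theorem n0000000000000001100 : NearOK 1 512 hBox tabU 45035996273704960 53 45035996273704960 53 466933209365773025 53 :=
  cellT_sound (by norm_num) (.nd (.nd .lf .lf) (.nd .lf .lf)) 45035996273704960 53 45035996273704960 53 466933209365773025 53 (by decide +kernel)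

theorem n0000000000000001101 : NearOK 1 512 hBox tabU 45035996273704960 53 63050394783186944 53 466933209365773025 53 :=
  cellT_sound (by norm_num) (.nd (.nd .lf .lf) (.nd .lf .lf)) 45035996273704960 53 63050394783186944 53 466933209365773025 53 (by decide +kernel)

theorem n000000000000000111 : NearOK 1 512 hBox tabU 63050394783186944 53 54043195528445952 54 466933209365773025 53 :=
  cellT_sound (by norm_num) (.nd (.nd (.nd .lf .lf) (.nd .lf .lf)) .lf) 63050394783186944 53 54043195528445952 54 466933209365773025 53 (by decide +kernel)

theorem n00000000000000100 : NearOK 1 512 hBox tabU 18014398509481984 54 90071992547409920 54 466933209365773025 53 :=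
  cellT_sound (by norm_num) (.nd (.nd (.nd .lf .lf) .lf) (.nd .lf .lf)) 18014398509481984 54 90071992547409920 54 466933209365773025 53 (by decide +kernel)

theorem n00000000000000101 : NearOK 1 512 hBox tabU 18014398509481984 54 126100789566373888 54 466933209365773025 53 :=
  cellT_sound (by norm_num) (.nd (.nd .lf .lf) .lf) 18014398509481984 54 126100789566373888 54 466933209365773025 53 (by decide +kernel)

theorem n0000000000000011 : NearOK 1 512 hBox tabU 54043195528445952 54 108086391056891904 55 466933209365773025 53 :=
  cellT_sound (by norm_num) (.nd (.nd (.nd .lf .lf) (.nd .lf .lf)) (.nd .lf .lf)) 54043195528445952 54 108086391056891904 55 466933209365773025 53 (by decide +kernel)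

theorem n000000000000010000 : NearOK 1 512 hBox tabU 81064793292668928 53 18014398509481984 54 466933209365773025 53 :=
  cellT_sound (by norm_num) (.nd (.nd (.nd .lf .lf) (.nd .lf .lf)) (.nd .lf .lf)) 81064793292668928 53 18014398509481984 54 466933209365773025 53 (by decide +kernel)

theorem n000000000000010001 : NearOK 1 512 hBox tabU 99079191802150912 53 18014398509481984 54 466933209365773025 53 :=
  cellT_sound (by norm_num) (.nd .lf .lf) 99079191802150912 53 18014398509481984 54 466933209365773025 53 (by decide +kernel)

theorem n00000000000001001 : NearOK 1 512 hBox tabU 90071992547409920 54 54043195528445952 54 466933209365773025 53 :=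
  cellT_sound (by norm_num) (.nd (.nd .lf .lf) (.nd .lf .lf)) 90071992547409920 54 54043195528445952 54 466933209365773025 53 (by decide +kernel)

theorem n0000000000000101 : NearOK 1 512 hBox tabU 126100789566373888 54 36028797018963968 55 466933209365773025 53 :=
  cellT_sound (by norm_num) (.nd (.nd (.nd .lf .lf) .lf) (.nd .lf .lf)) 126100789566373888 54 36028797018963968 55 466933209365773025 53 (by decide +kernel)

theorem n000000000000011 : NearOK 1 512 hBox tabU 108086391056891904 55 108086391056891904 55 466933209365773025 53 :=
  cellT_sound (by norm_num) (.nd (.nd (.nd .lf .lf) .lf) (.nd (.nd .lf .lf) .lf)) 108086391056891904 55 108086391056891904 55 466933209365773025 53 (by decide +kernel)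

theorem n00000000000010 : NearOK 1 512 hBox tabU 36028797018963968 55 216172782113783808 56 466933209365773025 53 :=
  cellT_sound (by norm_num) (.nd (.nd (.nd .lf .lf) (.nd .lf .lf)) (.nd .lf .lf)) 36028797018963968 55 216172782113783808 56 466933209365773025 53 (by decide +kernel)

end Vale.Agent.Lib.P154.TM.Cert.T405
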