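import Vale.Agent.Lib.P154.TM.Tab
import Vale.Agent.Lib.P154.TM.Row

namespace Vale.Agent.Lib.P154.TM.Cert.T405

open Vale.Agent.Lib.P154.TM

theorem n00000000000011 : NearOK 1 512 hBox tabU 108086391056891904 55 216172782113783808 56 466933209365773025 53 :=
  cellT_sound (by norm_num) (.nd (.nd (.nd .lf .lf) .lf) (.nd .lf .lf)) 108086391056891904 55 216172782113783808 56 466933209365773025 53 (by decide +kernel)

theorem n000000000001000 : NearOK 1 512 hBox tabU 180143985094819840 55 36028797018963968 55 466933209365773025 53 :=
  cellT_sound (by norm_num) (.nd (.nd (.nd .lf .lf) (.nd .lf .lf)) (.nd .lf .lf)) 180143985094819840 55 36028797018963968 55 466933209365773025 53 (by decide +kernel)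

theorem n000000000001001 : NearOK 1 512 hBox tabU 180143985094819840 55 108086391056891904 55 466933209365773025 53 :=
  cellT_sound (by norm_num) (.nd (.nd .lf .lf) (.nd .lf .lf)) 180143985094819840 55 108086391056891904 55 466933209365773025 53 (by decide +kernel)

theorem n00000000000101 : NearOK 1 512 hBox tabU 252201579132747776 55 72057594037927936 56 466933209365773025 53 :=
  cellT_sound (by norm_num) (.nd (.nd (.nd .lf .lf) .lf) (.nd .lf .lf)) 252201579132747776 55 72057594037927936 56 466933209365773025 53 (by decide +kernel)

theorem n0000000000011 : NearOK 1 512 hBox tabU 216172782113783808 56 216172782113783808 56 466933209365773025 53 :=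
  cellT_sound (by norm_num) (.nd (.nd (.nd .lf .lf) .lf) (.nd .lf .lf)) 216172782113783808 56 216172782113783808 56 466933209365773025 53 (by decide +kernel)

theorem n000000000010 : NearOK 1 512 hBox tabU 72057594037927936 56 432345564227567616 57 466933209365773025 53 :=
  cellT_sound (by norm_num) (.nd (.nd (.nd .lf .lf) (.nd .lf .lf)) (.nd .lf .lf)) 72057594037927936 56 432345564227567616 57 466933209365773025 53 (by decide +kernel)

theorem n000000000011 : NearOK 1 512 hBox tabU 216172782113783808 56 432345564227567616 57 466933209365773025 53 :=
  cellT_sound (by norm_num) (.nd (.nd .lf .lf) (.nd .lf .lf)) 216172782113783808 56 432345564227567616 57 466933209365773025 53 (by decide +kernel)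

theorem n0000000001000 : NearOK 1 512 hBox tabU 360287970189639680 56 72057594037927936 56 466933209365773025 53 :=
  cellT_sound (by norm_num) (.nd (.nd (.nd .lf .lf) (.nd .lf .lf)) (.nd .lf .lf)) 360287970189639680 56 72057594037927936 56 466933209365773025 53 (by decide +kernel)

theorem n0000000001001 : NearOK 1 512 hBox tabU 360287970189639680 56 216172782113783808 56 466933209365773025 53 :=
  cellT_sound (by norm_num) (.nd (.nd .lf .lf) .lf) 360287970189639680 56 216172782113783808 56 466933209365773025 53 (by decide +kernel)

theorem n000000000101 : NearOK 1 512 hBox tabU 504403158265495552 56 144115188075855872 57 466933209365773025 53 :=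
  cellT_sound (by norm_num) (.nd (.nd (.nd .lf .lf) .lf) (.nd .lf .lf)) 504403158265495552 56 144115188075855872 57 466933209365773025 53 (by decide +kernel)

theorem n00000000011 : NearOK 1 512 hBox tabU 432345564227567616 57 432345564227567616 57 466933209365773025 53 :=
  cellT_sound (by norm_num) (.nd (.nd (.nd .lf .lf) .lf) (.nd .lf .lf)) 432345564227567616 57 432345564227567616 57 466933209365773025 53 (by decide +kernel)

theorem n00000000100 : NearOK 1 512 hBox tabU 144115188075855872 57 720575940379279360 57 466933209365773025 53 :=
  cellT_sound (by norm_num) (.nd (.nd .lf .lf) (.nd .lf .lf)) 144115188075855872 57 720575940379279360 57 466933209365773025 53 (by decide +kernel)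

end Vale.Agent.Lib.P154.TM.Cert.T405
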