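import Vale.Agent.Lib.P154.TM.Tab
import Vale.Agent.Lib.P154.TM.Row

namespace Vale.Agent.Lib.P154.TM.Cert.T405

open Vale.Agent.Lib.P154.TM

theorem n10111 : NearOK 1 512 hBox tabU 3458764513820540928 60 17293822569102704640 60 466933209365773025 53 :=
  cellT_sound (by norm_num) (.nd (.nd .lf .lf) (.nd .lf .lf)) 3458764513820540928 60 17293822569102704640 60 466933209365773025 53 (by decide +kernel)

theorem n11000 : NearOK 1 512 hBox tabU 5764607523034234880 60 10376293541461622784 60 466933209365773025 53 :=
  cellT_sound (by norm_num) (.nd (.nd .lf .lf) (.nd .lf .lf)) 5764607523034234880 60 10376293541461622784 60 466933209365773025 53 (by decide +kernel)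

theorem n11001 : NearOK 1 512 hBox tabU 5764607523034234880 60 12682136550675316736 60 466933209365773025 53 :=
  cellT_sound (by norm_num) (.nd (.nd .lf .lf) (.nd .lf .lf)) 5764607523034234880 60 12682136550675316736 60 466933209365773025 53 (by decide +kernel)

theorem n11010 : NearOK 1 512 hBox tabU 8070450532247928832 60 10376293541461622784 60 466933209365773025 53 :=
  cellT_sound (by norm_num) (.nd (.nd .lf .lf) (.nd .lf .lf)) 8070450532247928832 60 10376293541461622784 60 466933209365773025 53 (by decide +kernel)

theorem n11011 : NearOK 1 512 hBox tabU 8070450532247928832 60 12682136550675316736 60 466933209365773025 53 :=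
  cellT_sound (by norm_num) (.nd (.nd .lf .lf) (.nd .lf .lf)) 8070450532247928832 60 12682136550675316736 60 466933209365773025 53 (by decide +kernel)

theorem n11100 : NearOK 1 512 hBox tabU 5764607523034234880 60 14987979559889010688 60 466933209365773025 53 :=
  cellT_sound (by norm_num) (.nd (.nd .lf .lf) (.nd .lf .lf)) 5764607523034234880 60 14987979559889010688 60 466933209365773025 53 (by decide +kernel)

theorem n11101 : NearOK 1 512 hBox tabU 5764607523034234880 60 17293822569102704640 60 466933209365773025 53 :=
  cellT_sound (by norm_num) (.nd (.nd .lf .lf) (.nd .lf .lf)) 5764607523034234880 60 17293822569102704640 60 466933209365773025 53 (by decide +kernel)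

theorem n11110 : NearOK 1 512 hBox tabU 8070450532247928832 60 14987979559889010688 60 466933209365773025 53 :=
  cellT_sound (by norm_num) (.nd (.nd .lf .lf) (.nd .lf .lf)) 8070450532247928832 60 14987979559889010688 60 466933209365773025 53 (by decide +kernel)

theorem n11111 : NearOK 1 512 hBox tabU 8070450532247928832 60 17293822569102704640 60 466933209365773025 53 :=
  cellT_sound (by norm_num) (.nd (.nd .lf .lf) (.nd .lf .lf)) 8070450532247928832 60 17293822569102704640 60 466933209365773025 53 (by decide +kernel)

end Vale.Agent.Lib.P154.TM.Cert.T405
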